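import Vale.Agent.P088.R2.H338.E.Pay
import Vale.Agent.P088.R2.H747.S.Zn

/-!
# P088, stage 3: the pair payments at the tubes

`MT1`, `coT1`: margin and cost of the tube `W_x = 0` (`|W_x| ≤ ρ N`), `MT2`, `coT2`: of the tube
`W_y = 0`; `MA`, `coA`: zone A.
-/

open MeasureTheory Set Filter
open scoped ContDiff Topology

set_option linter.unusedSectionVars false

noncomputable section

namespace Vale.Agent.P088.R2.H509.PT

open Vale.Agent.P088.R2.H961.GW Vale.Agent.P088.R2.H960.W Vale.Agent.P088.R2.H644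
open Vale.Agent.P088.R2.H551.E Vale.Agent.P088.R2.H338.E Vale.Agent.P088.R2.H747.SW

variable {E ι : Type*} [NormedAddCommGroup E] [NormedSpace ℝ E] [Fintype ι]

/-- The margin of the tube at `W_x = 0`. -/
def MT1 (c : ℝ) (N : E → ℝ) : Q8 E where
  κ _ := 1
  ζ₁ z := c * N z
  ζ₂ z := c * N z
  ζy _ := 0
  w₁ z := c * N z ^ 2
  w₂ z := c * N z ^ 3
  wb _ := 0
  wc _ := 0

/-- The margin of the tube at `W_y = 0`. -/
def MT2 (c : ℝ) (N : E → ℝ) : Q8 E where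
  κ _ := 1
  ζ₁ z := c * N z
  ζ₂ z := c * N z
  ζy _ := 0
  w₁ z := c * N z ^ 3
  w₂ z := c * N z ^ 2
  wb _ := 0
  wc _ := 0

/-- The cost of the tube at `W_x = 0`. -/
def coT1 (C : ℝ) (N et : E → ℝ) : Q8 E where
  κ z := et z ^ 2 * (C / √(N z))
  ζ₁ z := et z ^ 2 * (C * √(N z))
  ζ₂ z := et z ^ 2 * (C * √(N z))
  ζy _ := 0
  w₁ z := et z ^ 2 * (C * N z * √(N z))
  w₂ z := et z ^ 2 * (C * N z ^ 2 * √(N z))
  wb _ := 0
  wc _ := 0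

/-- The cost of the tube at `W_y = 0`. -/
def coT2 (C : ℝ) (N et : E → ℝ) : Q8 E where
  κ z := et z ^ 2 * (C / √(N z))
  ζ₁ z := et z ^ 2 * (C * √(N z))
  ζ₂ z := et z ^ 2 * (C * √(N z))
  ζy _ := 0
  w₁ z := et z ^ 2 * (C * N z ^ 2 * √(N z))
  w₂ z := et z ^ 2 * (C * N z * √(N z))
  wb _ := 0
  wc _ := 0

/-- A zone whose margin is at least `κ₁` (squares), `c N` (first order), `c N²` resp. `c N³`
(zero order) at `z`; `i = 1`: the tube of `W_x`. -/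
structure Big (M : Q8 E) (κ₁ c N a₁ a₂ : ℝ) (z : E) : Prop where
  κ : κ₁ ≤ M.κ z
  ζ₁ : c * N ≤ M.ζ₁ z
  ζ₂ : c * N ≤ M.ζ₂ z
  ζy : 0 ≤ M.ζy z
  w₁ : c * a₁ ≤ M.w₁ z
  w₂ : c * a₂ ≤ M.w₂ z
  wb : 0 ≤ M.wb z
  wc : 0 ≤ M.wc z

variable {σ τ : Sl E ι} {v₁ v₂ W a b : E → ℝ} {z : E} {M : Q8 E}
  {κ₁ κ₀ c C q η B : ℝ} {N et m χ : E → ℝ}

theorem Big.mono {κ₁' c' N a₁ a₂ a₁' a₂' : ℝ} (h : Big M κ₁ c N a₁ a₂ z) (hκ : κ₁' ≤ κ₁)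
    (hc : c' ≤ c) (hN : 0 ≤ N) (h1 : c' * a₁' ≤ c * a₁) (h2 : c' * a₂' ≤ c * a₂) :
    Big M κ₁' c' N a₁' a₂' z :=
  ⟨hκ.trans h.κ, (mul_le_mul_of_nonneg_right hc hN).trans h.ζ₁,
    (mul_le_mul_of_nonneg_right hc hN).trans h.ζ₂, h.ζy, h1.trans h.w₁, h2.trans h.w₂, h.wb, h.wc⟩

theorem big_T1 (c : ℝ) (N : E → ℝ) (z : E) :
    Big (MT1 c N) 1 c (N z) (N z ^ 2) (N z ^ 3) z :=
  ⟨le_rfl, le_rfl, le_rfl, le_rfl, le_rfl, le_rfl, le_rfl, le_rfl⟩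

theorem big_T2 (c : ℝ) (N : E → ℝ) (z : E) :
    Big (MT2 c N) 1 c (N z) (N z ^ 3) (N z ^ 2) z :=
  ⟨le_rfl, le_rfl, le_rfl, le_rfl, le_rfl, le_rfl, le_rfl, le_rfl⟩

/-- Zone A off the tubes. -/
theorem big_A {c' N : ℝ} (hm : c * N ≤ m z) (hN : 0 ≤ N) (hc : 0 ≤ c) (hc' : 0 ≤ c')
    (h1 : c' * N ^ 2 ≤ σ.F W z) (h2 : c' * N ^ 2 ≤ τ.F W z) :
    Big (MA σ τ W m κ₀) (1 - κ₀) c N (1 / 3 * c' * N ^ 3) (1 / 3 * c' * N ^ 3) z := by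
  have k1 : c * N * (c' * N ^ 2) ≤ m z * σ.F W z :=
    mul_le_mul hm h1 (by positivity) ((mul_nonneg hc hN).trans hm)
  have k2 : c * N * (c' * N ^ 2) ≤ m z * τ.F W z :=
    mul_le_mul hm h2 (by positivity) ((mul_nonneg hc hN).trans hm)
  refine ⟨le_rfl, hm, hm, le_rfl, ?_, ?_, le_rfl, le_rfl⟩
  · show c * (1 / 3 * c' * N ^ 3) ≤ 1 / 3 * (m z * σ.F W z)
    nlinarith
  · show c * (1 / 3 * c' * N ^ 3) ≤ 1 / 3 * (m z * τ.F W z)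
    nlinarith

/-- `q co ≤ M` from the coefficients. -/
theorem dens_mul_le {p M : Q8 E} (hκ : q * p.κ z ≤ M.κ z) (hζ₁ : q * p.ζ₁ z ≤ M.ζ₁ z)
    (hζ₂ : q * p.ζ₂ z ≤ M.ζ₂ z) (hζy : q * p.ζy z ≤ M.ζy z) (hw₁ : q * p.w₁ z ≤ M.w₁ z)
    (hw₂ : q * p.w₂ z ≤ M.w₂ z) (hwb : q * p.wb z ≤ M.wb z) (hwc : q * p.wc z ≤ M.wc z) :
    q * p.dens σ τ v₁ v₂ W a b z ≤ M.dens σ τ v₁ v₂ W a b z := by
  have h := Q8.dens_le (σ := σ) (τ := τ) (v₁ := v₁) (v₂ := v₂) (W := W) (a := a) (b := b)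
    (p := Q8.sm (fun _ => q) p) (q := M) (z := z)
    ⟨hκ, hζ₁, hζ₂, hζy, hw₁, hw₂, hwb, hwc⟩
  rwa [Q8.dens_sm] at h

/-- **The universal payer of the cost of the tube `W_x = 0`.** -/
theorem coT1_le (h : Big M κ₁ c (N z) (N z ^ 2) (N z ^ 3) z) (hN : 0 < N z) (hq : 0 ≤ q) (hC : 0 ≤ C)
    (h0 : 0 ≤ et z) (h1 : et z ≤ 1) (hκ : q * C ≤ κ₁ * √(N z)) (hc : q * C ≤ c * √(N z)) :
    q * (coT1 C N et).dens σ τ v₁ v₂ W a b z ≤ M.dens σ τ v₁ v₂ W a b z := by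
  have hs : 0 < √(N z) := Real.sqrt_pos.2 hN
  have e : √(N z) * √(N z) = N z := Real.mul_self_sqrt hN.le
  have h2 : et z ^ 2 ≤ 1 := pow_le_one₀ h0 h1
  have hqC : 0 ≤ q * C := mul_nonneg hq hC
  have ht : ∀ x, 0 ≤ x → et z ^ 2 * x ≤ x := fun x hx => mul_le_of_le_one_left hx h2
  have a1 : q * C * √(N z) ≤ c * N z := by
    calc q * C * √(N z) ≤ c * √(N z) * √(N z) := mul_le_mul_of_nonneg_right hc hs.le
      _ = c * N z := by rw [mul_assoc, e]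
  refine dens_mul_le ?_ ?_ ?_ ?_ ?_ ?_ ?_ ?_
  · refine le_trans ?_ h.κ
    show q * (et z ^ 2 * (C / √(N z))) ≤ κ₁
    calc q * (et z ^ 2 * (C / √(N z))) ≤ q * (C / √(N z)) :=
          mul_le_mul_of_nonneg_left (ht _ (by positivity)) hq
      _ = q * C / √(N z) := by ring
      _ ≤ κ₁ := (div_le_iff₀ hs).2 hκ
  · refine le_trans ?_ h.ζ₁
    show q * (et z ^ 2 * (C * √(N z))) ≤ c * N z
    exact (mul_le_mul_of_nonneg_left (ht _ (by positivity)) hq).trans (by linarith)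
  · refine le_trans ?_ h.ζ₂
    show q * (et z ^ 2 * (C * √(N z))) ≤ c * N z
    exact (mul_le_mul_of_nonneg_left (ht _ (by positivity)) hq).trans (by linarith)
  · show q * 0 ≤ _
    rw [mul_zero]
    exact h.ζy
  · refine le_trans ?_ h.w₁
    show q * (et z ^ 2 * (C * N z * √(N z))) ≤ c * N z ^ 2
    refine (mul_le_mul_of_nonneg_left (ht _ (by positivity)) hq).trans ?_
    have := mul_le_mul_of_nonneg_right a1 hN.le
    linarith [this]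
  · refine le_trans ?_ h.w₂
    show q * (et z ^ 2 * (C * N z ^ 2 * √(N z))) ≤ c * N z ^ 3
    refine (mul_le_mul_of_nonneg_left (ht _ (by positivity)) hq).trans ?_
    have := mul_le_mul_of_nonneg_right a1 (sq_nonneg (N z))
    linarith [this]
  · show q * 0 ≤ _
    rw [mul_zero]
    exact h.wb
  · show q * 0 ≤ _
    rw [mul_zero]
    exact h.wc

/-- **The universal payer of the cost of the tube `W_y = 0`.** -/
theorem coT2_le (h : Big M κ₁ c (N z) (N z ^ 3) (N z ^ 2) z) (hN : 0 < N z) (hq : 0 ≤ q) (hC : 0 ≤ C)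
    (h0 : 0 ≤ et z) (h1 : et z ≤ 1) (hκ : q * C ≤ κ₁ * √(N z)) (hc : q * C ≤ c * √(N z)) :
    q * (coT2 C N et).dens σ τ v₁ v₂ W a b z ≤ M.dens σ τ v₁ v₂ W a b z := by
  have hs : 0 < √(N z) := Real.sqrt_pos.2 hN
  have e : √(N z) * √(N z) = N z := Real.mul_self_sqrt hN.le
  have h2 : et z ^ 2 ≤ 1 := pow_le_one₀ h0 h1
  have hqC : 0 ≤ q * C := mul_nonneg hq hC
  have ht : ∀ x, 0 ≤ x → et z ^ 2 * x ≤ x := fun x hx => mul_le_of_le_one_left hx h2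
  have a1 : q * C * √(N z) ≤ c * N z := by
    calc q * C * √(N z) ≤ c * √(N z) * √(N z) := mul_le_mul_of_nonneg_right hc hs.le
      _ = c * N z := by rw [mul_assoc, e]
  refine dens_mul_le ?_ ?_ ?_ ?_ ?_ ?_ ?_ ?_
  · refine le_trans ?_ h.κ
    show q * (et z ^ 2 * (C / √(N z))) ≤ κ₁
    calc q * (et z ^ 2 * (C / √(N z))) ≤ q * (C / √(N z)) :=
          mul_le_mul_of_nonneg_left (ht _ (by positivity)) hq
      _ = q * C / √(N z) := by ring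
      _ ≤ κ₁ := (div_le_iff₀ hs).2 hκ
  · refine le_trans ?_ h.ζ₁
    show q * (et z ^ 2 * (C * √(N z))) ≤ c * N z
    exact (mul_le_mul_of_nonneg_left (ht _ (by positivity)) hq).trans (by linarith)
  · refine le_trans ?_ h.ζ₂
    show q * (et z ^ 2 * (C * √(N z))) ≤ c * N z
    exact (mul_le_mul_of_nonneg_left (ht _ (by positivity)) hq).trans (by linarith)
  · show q * 0 ≤ _
    rw [mul_zero]
    exact h.ζy
  · refine le_trans ?_ h.w₁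
    show q * (et z ^ 2 * (C * N z ^ 2 * √(N z))) ≤ c * N z ^ 3
    refine (mul_le_mul_of_nonneg_left (ht _ (by positivity)) hq).trans ?_
    have := mul_le_mul_of_nonneg_right a1 (sq_nonneg (N z))
    linarith [this]
  · refine le_trans ?_ h.w₂
    show q * (et z ^ 2 * (C * N z * √(N z))) ≤ c * N z ^ 2
    refine (mul_le_mul_of_nonneg_left (ht _ (by positivity)) hq).trans ?_
    have := mul_le_mul_of_nonneg_right a1 hN.le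
    linarith [this]
  · show q * 0 ≤ _
    rw [mul_zero]
    exact h.wb
  · show q * 0 ≤ _
    rw [mul_zero]
    exact h.wc

/-! ## The cost of zone A at the tubes -/

theorem rh_le_one {z : E} (h : 0 ≤ m z) : rh m z ≤ 1 := by
  unfold rh
  rw [div_le_one (by linarith)]
  linarith

theorem rh_le_half {z : E} (h : 0 ≤ m z) : rh m z ≤ m z / 2 := by
  unfold rh
  rw [div_le_div_iff₀ (by linarith) (by norm_num)]
  nlinarith

/-- Bounds of a cut-off, of the weight and of the margin of zone A at a point of a tube layer. -/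
structure Lay (σ τ : Sl E ι) (W m χ : E → ℝ) (B C₁ N g₁ g₂ : ℝ) (z : E) : Prop where
  m0 : 0 ≤ m z
  m1 : m z ≤ C₁ * N
  dx : ∑ i, σ.D i χ z ^ 2 ≤ B
  dy : ∑ i, τ.D i χ z ^ 2 ≤ B
  gx : σ.Γ χ χ z ≤ 2 * B
  gy : τ.Γ χ χ z ≤ 2 * B
  wx : ∑ i, σ.D i W z ^ 2 ≤ g₁ * N ^ 2
  wy : ∑ i, τ.D i W z ^ 2 ≤ g₂ * N ^ 2

/-- One slot. -/
theorem slot_w {X G Z F mm r : ℝ} {q η B C₁ N g k : ℝ} (hq : 0 ≤ q) (hη : 0 < η)
    (hB : 0 ≤ B) (m0 : 0 ≤ mm) (m1 : mm ≤ C₁ * N) (r1 : r ≤ 1)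
    (hX0 : 0 ≤ X) (hX : X ≤ B) (hG : G ≤ 2 * B) (hZ0 : 0 ≤ Z) (hZ : Z ≤ g * N ^ 2)
    (h1 : q * (6 * C₁ * B / η * N) + q * (144 * η * B * g) * N ^ 2 ≤ k) (hF : F = k) :
    q * (3 / η * (mm * G) + 144 * η * (r * X * Z)) ≤ F := by
  rw [hF]
  refine le_trans ?_ h1
  have a1 : mm * G ≤ mm * (2 * B) := mul_le_mul_of_nonneg_left hG m0
  have a2 : mm * (2 * B) ≤ C₁ * N * (2 * B) := mul_le_mul_of_nonneg_right m1 (by positivity)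
  have a3 : 3 / η * (mm * G) ≤ 3 / η * (C₁ * N * (2 * B)) :=
    mul_le_mul_of_nonneg_left (a1.trans a2) (by positivity)
  have b1 : r * X ≤ B := (mul_le_of_le_one_left hX0 r1).trans hX
  have b2 : r * X * Z ≤ B * (g * N ^ 2) := mul_le_mul b1 hZ hZ0 hB
  have b3 : 144 * η * (r * X * Z) ≤ 144 * η * (B * (g * N ^ 2)) :=
    mul_le_mul_of_nonneg_left b2 (by positivity)
  have c1 := mul_le_mul_of_nonneg_left (add_le_add a3 b3) hq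
  refine c1.trans (le_of_eq ?_)
  ring

/-- **The cost of zone A on the layers of the tubes.** -/
theorem coA_le {C₁ N g₁ g₂ a₁ a₂ : ℝ} (h : Big M κ₁ c N a₁ a₂ z)
    (hL : Lay σ τ W m χ B C₁ N g₁ g₂ z) (hq : 0 ≤ q) (hη : 0 < η) (hB : 0 ≤ B)
    (hκ : 0 ≤ κ₁) (hz : q * (32 * η * B) ≤ c * N)
    (h1 : q * (6 * C₁ * B / η * N) + q * (144 * η * B * g₁) * N ^ 2 ≤ c * a₁)
    (h2 : q * (6 * C₁ * B / η * N) + q * (144 * η * B * g₂) * N ^ 2 ≤ c * a₂) :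
    q * (coA σ τ W m χ η).dens σ τ v₁ v₂ W a b z ≤ M.dens σ τ v₁ v₂ W a b z := by
  have r1 := rh_le_one hL.m0
  have X0 : 0 ≤ ∑ i, σ.D i χ z ^ 2 := Finset.sum_nonneg fun _ _ => sq_nonneg _
  have Y0 : 0 ≤ ∑ i, τ.D i χ z ^ 2 := Finset.sum_nonneg fun _ _ => sq_nonneg _
  have Z0 : 0 ≤ ∑ i, σ.D i W z ^ 2 := Finset.sum_nonneg fun _ _ => sq_nonneg _
  have Z0' : 0 ≤ ∑ i, τ.D i W z ^ 2 := Finset.sum_nonneg fun _ _ => sq_nonneg _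
  have e1 : ∀ X, 0 ≤ X → X ≤ B → q * (32 * η * (rh m z * X)) ≤ c * N := fun X h0 hX => by
    refine le_trans ?_ hz
    refine mul_le_mul_of_nonneg_left (mul_le_mul_of_nonneg_left ?_ (by positivity)) hq
    exact (mul_le_of_le_one_left h0 r1).trans hX
  refine dens_mul_le ?_ ?_ ?_ ?_ ?_ ?_ ?_ ?_
  · show q * 0 ≤ _
    rw [mul_zero]
    exact hκ.trans h.κ
  · exact (e1 _ X0 hL.dx).trans h.ζ₁
  · exact (e1 _ Y0 hL.dy).trans h.ζ₂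
  · show q * 0 ≤ _
    rw [mul_zero]
    exact h.ζy
  · exact (slot_w hq hη hB hL.m0 hL.m1 r1 X0 hL.dx hL.gx Z0 hL.wx h1 rfl).trans h.w₁
  · exact (slot_w hq hη hB hL.m0 hL.m1 r1 Y0 hL.dy hL.gy Z0' hL.wy h2 rfl).trans h.w₂
  · show q * 0 ≤ _
    rw [mul_zero]
    exact h.wb
  · show q * 0 ≤ _
    rw [mul_zero]
    exact h.wc

/-- Zone A pays for its own cost wherever `F ≥ 36 q B / η²`-large and `η` is small. -/
theorem coA_self (hq : 0 ≤ q) (hη : 0 < η) (hB : 0 ≤ B) (hκ : κ₀ ≤ 1) (m0 : 0 ≤ m z)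
    (dx : ∑ i, σ.D i χ z ^ 2 ≤ B) (dy : ∑ i, τ.D i χ z ^ 2 ≤ B) (gx : σ.Γ χ χ z ≤ 2 * B)
    (gy : τ.Γ χ χ z ≤ 2 * B) (wx : ∑ i, σ.D i W z ^ 2 ≤ 2 * σ.F W z)
    (wy : ∑ i, τ.D i W z ^ 2 ≤ 2 * τ.F W z) (h1 : q * (36 * B / η) ≤ σ.F W z)
    (h2 : q * (36 * B / η) ≤ τ.F W z) (h3 : q * (864 * η * B) ≤ 1) :
    q * (coA σ τ W m χ η).dens σ τ v₁ v₂ W a b z ≤ (MA σ τ W m κ₀).dens σ τ v₁ v₂ W a b z := by
  have r0 : 0 ≤ rh m z := rh_nonneg m0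
  have r1 := rh_le_half m0
  have X0 : 0 ≤ ∑ i, σ.D i χ z ^ 2 := Finset.sum_nonneg fun _ _ => sq_nonneg _
  have Y0 : 0 ≤ ∑ i, τ.D i χ z ^ 2 := Finset.sum_nonneg fun _ _ => sq_nonneg _
  have Z0 : 0 ≤ ∑ i, σ.D i W z ^ 2 := Finset.sum_nonneg fun _ _ => sq_nonneg _
  have Z0' : 0 ≤ ∑ i, τ.D i W z ^ 2 := Finset.sum_nonneg fun _ _ => sq_nonneg _
  have qB : 0 ≤ q * (η * B) := by positivity
  have e1 : ∀ X, 0 ≤ X → X ≤ B → q * (32 * η * (rh m z * X)) ≤ m z := fun X h0 hX => by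
    have : rh m z * X ≤ m z / 2 * B := mul_le_mul r1 hX h0 (by linarith)
    have h' := mul_le_mul_of_nonneg_left this (by positivity : 0 ≤ q * (32 * η))
    nlinarith [mul_le_mul_of_nonneg_right h3 m0, mul_nonneg qB m0]
  have e2 : ∀ X G Z F, 0 ≤ X → X ≤ B → G ≤ 2 * B → 0 ≤ Z → Z ≤ 2 * F → q * (36 * B / η) ≤ F →
      q * (3 / η * (m z * G) + 144 * η * (rh m z * X * Z)) ≤ 1 / 3 * (m z * F) := by
    intro X G Z F hX0 hX hG hZ0 hZ hF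
    have a1 : q * (3 / η * (m z * G)) ≤ 1 / 6 * (m z * F) := by
      have : m z * G ≤ m z * (2 * B) := mul_le_mul_of_nonneg_left hG m0
      have h' := mul_le_mul_of_nonneg_left this (by positivity : 0 ≤ q * (3 / η))
      have h'' := mul_le_mul_of_nonneg_left hF m0
      have : q * (3 / η) * (m z * (2 * B)) = 1 / 6 * (m z * (q * (36 * B / η))) := by
        field_simp
        ring
      nlinarith
    have a2 : q * (144 * η * (rh m z * X * Z)) ≤ 1 / 6 * (m z * F) := by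
      have k1 : rh m z * X ≤ m z / 2 * B := mul_le_mul r1 hX hX0 (by linarith)
      have k2 : rh m z * X * Z ≤ m z / 2 * B * (2 * F) :=
        mul_le_mul k1 hZ hZ0 (by positivity)
      have h' := mul_le_mul_of_nonneg_left k2 (by positivity : 0 ≤ q * (144 * η))
      have hF0 : 0 ≤ F := by linarith
      nlinarith [mul_le_mul_of_nonneg_right h3 (mul_nonneg m0 hF0)]
    linarith
  refine dens_mul_le ?_ ?_ ?_ ?_ ?_ ?_ ?_ ?_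
  · show q * 0 ≤ 1 - κ₀
    rw [mul_zero]
    linarith
  · exact e1 _ X0 dx
  · exact e1 _ Y0 dy
  · show q * 0 ≤ 0
    rw [mul_zero]
  · exact e2 _ _ _ _ X0 dx gx Z0 wx h1
  · exact e2 _ _ _ _ Y0 dy gy Z0' wy h2
  · show q * 0 ≤ 0
    rw [mul_zero]
  · show q * 0 ≤ 0
    rw [mul_zero]

/-! ## All pairs at the tubes -/

/-- The numbers: `q` (number of pairs), `c`, `C` of the tubes, `c₁ N ≤ m ≤ C₁ N`, `F ≥ c₂ N²` off the
tubes, `|D χ|² ≤ B`, `|D W|² ≤ g₀ N²` in the slot of the tube and `≤ g N²` in the other one. -/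
structure Num (q c C c₁ C₁ c₂ g₀ g B κ₀ η N : ℝ) : Prop where
  N1 : 1 ≤ N
  /-- the cost of the tubes -/
  t1 : q * C ≤ (1 - κ₀) * √N
  t2 : q * C ≤ c * √N
  t3 : q * C ≤ c₁ * √N
  t4 : q * C ≤ 1 / 3 * c₁ * c₂ * √N
  t5 : q * C ≤ √N
  /-- the cost of zone A, small `η` -/
  e1 : 2 * (q * (144 * η * B * g₀)) ≤ c
  /-- the cost of zone A, large `N` -/
  a1 : q * (32 * η * B) ≤ c * N
  a2 : 2 * (q * (6 * C₁ * B / η)) ≤ c * N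
  a3 : 2 * (q * (144 * η * B * g)) ≤ c * N
  a4 : q * (36 * B / η) ≤ c₂ * N ^ 2
  a5 : q * (864 * η * B) ≤ 1

section all

variable {C c₁ C₁ c₂ g₀ g : ℝ}

/-- Cost of `T1` against `T1`. -/
theorem pay_T1_T1 (h : Num q c C c₁ C₁ c₂ g₀ g B κ₀ η (N z)) (hq : 0 ≤ q) (hC : 0 ≤ C)
    (h0 : 0 ≤ et z) (h1 : et z ≤ 1) :
    q * (coT1 C N et).dens σ τ v₁ v₂ W a b z ≤ (MT1 c N).dens σ τ v₁ v₂ W a b z :=
  coT1_le (big_T1 c N z) (by linarith [h.N1]) hq hC h0 h1 (by linarith [h.t5]) h.t2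

/-- Cost of `T2` against `T2`. -/
theorem pay_T2_T2 (h : Num q c C c₁ C₁ c₂ g₀ g B κ₀ η (N z)) (hq : 0 ≤ q) (hC : 0 ≤ C)
    (h0 : 0 ≤ et z) (h1 : et z ≤ 1) :
    q * (coT2 C N et).dens σ τ v₁ v₂ W a b z ≤ (MT2 c N).dens σ τ v₁ v₂ W a b z :=
  coT2_le (big_T2 c N z) (by linarith [h.N1]) hq hC h0 h1 (by linarith [h.t5]) h.t2

/-- `N² ≤ N³` etc., for zone A off the tubes. -/
theorem big_A' {N : ℝ} (hm : c₁ * N ≤ m z) (hN : 1 ≤ N) (hc : 0 ≤ c₁) (hc' : 0 ≤ c₂)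
    (h1 : c₂ * N ^ 2 ≤ σ.F W z) (h2 : c₂ * N ^ 2 ≤ τ.F W z) :
    Big (MA σ τ W m κ₀) (1 - κ₀) (min c₁ (1 / 3 * c₁ * c₂)) N (N ^ 3) (N ^ 3) z := by
  have h := big_A (κ₀ := κ₀) hm (by linarith) hc hc' h1 h2
  have e : min c₁ (1 / 3 * c₁ * c₂) * N ^ 3 ≤ c₁ * (1 / 3 * c₂ * N ^ 3) := by
    have : min c₁ (1 / 3 * c₁ * c₂) * N ^ 3 ≤ 1 / 3 * c₁ * c₂ * N ^ 3 :=
      mul_le_mul_of_nonneg_right (min_le_right _ _) (by positivity)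
    linarith
  exact h.mono le_rfl (min_le_left _ _) (by linarith) e e

theorem cub {N : ℝ} (hN : 1 ≤ N) : N ^ 2 ≤ N ^ 3 := pow_le_pow_right₀ hN (by norm_num)

/-- Cost of `T1` against zone A. -/
theorem pay_T1_A (h : Num q c C c₁ C₁ c₂ g₀ g B κ₀ η (N z)) (hq : 0 ≤ q) (hC : 0 ≤ C)
    (hc : 0 ≤ c₁) (hc' : 0 ≤ c₂) (h0 : 0 ≤ et z) (h1 : et z ≤ 1) (hm : c₁ * N z ≤ m z)
    (k1 : c₂ * N z ^ 2 ≤ σ.F W z) (k2 : c₂ * N z ^ 2 ≤ τ.F W z) :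
    q * (coT1 C N et).dens σ τ v₁ v₂ W a b z ≤ (MA σ τ W m κ₀).dens σ τ v₁ v₂ W a b z := by
  have hN := h.N1
  have hb := big_A' (κ₀ := κ₀) hm hN hc hc' k1 k2
  have hmin : 0 ≤ min c₁ (1 / 3 * c₁ * c₂) := le_min hc (by positivity)
  refine coT1_le (hb.mono le_rfl le_rfl (by linarith)
    (mul_le_mul_of_nonneg_left (cub hN) hmin) le_rfl) (by linarith) hq hC h0 h1 h.t1 ?_
  rw [min_mul_of_nonneg _ _ (Real.sqrt_nonneg (N z))]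
  exact le_min h.t3 h.t4

/-- Cost of `T2` against zone A. -/
theorem pay_T2_A (h : Num q c C c₁ C₁ c₂ g₀ g B κ₀ η (N z)) (hq : 0 ≤ q) (hC : 0 ≤ C)
    (hc : 0 ≤ c₁) (hc' : 0 ≤ c₂) (h0 : 0 ≤ et z) (h1 : et z ≤ 1) (hm : c₁ * N z ≤ m z)
    (k1 : c₂ * N z ^ 2 ≤ σ.F W z) (k2 : c₂ * N z ^ 2 ≤ τ.F W z) :
    q * (coT2 C N et).dens σ τ v₁ v₂ W a b z ≤ (MA σ τ W m κ₀).dens σ τ v₁ v₂ W a b z := by
  have hN := h.N1
  have hb := big_A' (κ₀ := κ₀) hm hN hc hc' k1 k2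
  have hmin : 0 ≤ min c₁ (1 / 3 * c₁ * c₂) := le_min hc (by positivity)
  refine coT2_le (hb.mono le_rfl le_rfl (by linarith) le_rfl
    (mul_le_mul_of_nonneg_left (cub hN) hmin)) (by linarith) hq hC h0 h1 h.t1 ?_
  rw [min_mul_of_nonneg _ _ (Real.sqrt_nonneg (N z))]
  exact le_min h.t3 h.t4

theorem num_lay₀ {N : ℝ} (h : Num q c C c₁ C₁ c₂ g₀ g B κ₀ η N) :
    q * (6 * C₁ * B / η * N) + q * (144 * η * B * g₀) * N ^ 2 ≤ c * N ^ 2 := by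
  have hN := h.N1
  have k1 := mul_le_mul_of_nonneg_right h.a2 (by linarith : 0 ≤ N)
  have k2 := mul_le_mul_of_nonneg_right h.e1 (sq_nonneg N)
  nlinarith

theorem num_lay {N : ℝ} (h : Num q c C c₁ C₁ c₂ g₀ g B κ₀ η N) (hc : 0 ≤ c) :
    q * (6 * C₁ * B / η * N) + q * (144 * η * B * g) * N ^ 2 ≤ c * N ^ 3 := by
  have hN := h.N1
  have k1 := mul_le_mul_of_nonneg_right h.a2 (by linarith : 0 ≤ N)
  have k2 := mul_le_mul_of_nonneg_right h.a3 (sq_nonneg N)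
  have k3 := mul_le_mul_of_nonneg_left (cub hN) hc
  nlinarith

/-- Cost of zone A against `T1` on the layer of `T1`. -/
theorem pay_A_T1 (h : Num q c C c₁ C₁ c₂ g₀ g B κ₀ η (N z)) (hq : 0 ≤ q) (hη : 0 < η) (hB : 0 ≤ B)
    (hc : 0 ≤ c) (hL : Lay σ τ W m χ B C₁ (N z) g₀ g z) :
    q * (coA σ τ W m χ η).dens σ τ v₁ v₂ W a b z ≤ (MT1 c N).dens σ τ v₁ v₂ W a b z :=
  coA_le (big_T1 c N z) hL hq hη hB zero_le_one h.a1 (num_lay₀ h) (num_lay h hc)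

/-- Cost of zone A against `T2` on the layer of `T2`. -/
theorem pay_A_T2 (h : Num q c C c₁ C₁ c₂ g₀ g B κ₀ η (N z)) (hq : 0 ≤ q) (hη : 0 < η) (hB : 0 ≤ B)
    (hc : 0 ≤ c) (hL : Lay σ τ W m χ B C₁ (N z) g g₀ z) :
    q * (coA σ τ W m χ η).dens σ τ v₁ v₂ W a b z ≤ (MT2 c N).dens σ τ v₁ v₂ W a b z :=
  coA_le (big_T2 c N z) hL hq hη hB zero_le_one h.a1 (num_lay h hc) (num_lay₀ h)

/-- Cost of zone A against zone A on the layers of the tubes. -/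
theorem pay_A_A (h : Num q c C c₁ C₁ c₂ g₀ g B κ₀ η (N z)) (hq : 0 ≤ q) (hη : 0 < η) (hB : 0 ≤ B)
    (hκ : κ₀ ≤ 1) (m0 : 0 ≤ m z)
    (dx : ∑ i, σ.D i χ z ^ 2 ≤ B) (dy : ∑ i, τ.D i χ z ^ 2 ≤ B) (gx : σ.Γ χ χ z ≤ 2 * B)
    (gy : τ.Γ χ χ z ≤ 2 * B) (wx : ∑ i, σ.D i W z ^ 2 ≤ 2 * σ.F W z)
    (wy : ∑ i, τ.D i W z ^ 2 ≤ 2 * τ.F W z) (k1 : c₂ * N z ^ 2 ≤ σ.F W z)
    (k2 : c₂ * N z ^ 2 ≤ τ.F W z) :
    q * (coA σ τ W m χ η).dens σ τ v₁ v₂ W a b z ≤ (MA σ τ W m κ₀).dens σ τ v₁ v₂ W a b z :=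
  coA_self hq hη hB hκ m0 dx dy gx gy wx wy (h.a4.trans k1) (h.a4.trans k2) h.a5

end all

/-- **The numbers can be chosen**: `η` small (after all constants of the tubes), then `N` large. -/
theorem ex_num {q c C c₁ C₁ c₂ g₀ g B : ℝ} (hq : 0 < q) (hc : 0 < c) (h1 : 0 < c₁)
    (h2 : 0 < c₂) (hg0 : 0 ≤ g₀) (hB : 0 ≤ B) :
    ∃ η₀ : ℝ, 0 < η₀ ∧ ∀ η, 0 < η → η ≤ η₀ → ∀ κ₀ : ℝ, κ₀ < 1 → ∃ N₀ : ℝ, ∀ N, N₀ ≤ N →
      Num q c C c₁ C₁ c₂ g₀ g B κ₀ η N := by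
  refine ⟨min (c / (2 * (q * (144 * B * g₀)) + 1)) (1 / (q * (864 * B) + 1)),
    lt_min (by positivity) (by positivity), fun η hη hη1 κ₀ hκ => ?_⟩
  have ev : ∀ x y : ℝ, 0 < y → ∀ᶠ N in atTop, x ≤ y * N := fun x y hy =>
    (tendsto_id.const_mul_atTop hy).eventually_ge_atTop x
  have ev' : ∀ x y : ℝ, 0 < y → ∀ᶠ N in atTop, x ≤ y * √N := fun x y hy =>
    (Real.tendsto_sqrt_atTop.const_mul_atTop hy).eventually_ge_atTop x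
  have ev2 : ∀ x y : ℝ, 0 < y → ∀ᶠ N in atTop, x ≤ y * N ^ 2 := fun x y hy =>
    ((tendsto_pow_atTop two_ne_zero).const_mul_atTop hy).eventually_ge_atTop x
  have hall : ∀ᶠ N : ℝ in atTop, Num q c C c₁ C₁ c₂ g₀ g B κ₀ η N := by
    filter_upwards [eventually_ge_atTop 1, ev' (q * C) (1 - κ₀) (by linarith), ev' (q * C) c hc,
      ev' (q * C) c₁ h1, ev' (q * C) (1 / 3 * c₁ * c₂) (by positivity), ev' (q * C) 1 one_pos,
      ev (q * (32 * η * B)) c hc, ev (2 * (q * (6 * C₁ * B / η))) c hc,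
      ev (2 * (q * (144 * η * B * g))) c hc, ev2 (q * (36 * B / η)) c₂ h2] with N n0 n1 n2 n3 n4
      n5 n6 n7 n8 n9
    refine ⟨n0, n1, n2, n3, n4, by linarith, ?_, n6, n7, n8, n9, ?_⟩
    · have k := hη1.trans (min_le_left _ _)
      rw [le_div_iff₀ (by positivity)] at k
      nlinarith
    · have k := hη1.trans (min_le_right _ _)
      rw [le_div_iff₀ (by positivity)] at k
      nlinarith
  exact eventually_atTop.1 hall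

end Vale.Agent.P088.R2.H509.PT
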